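import Vale.Agent.P088.R2.H960.W.Weyl2
import Vale.Agent.P088.R2.H644.W.Flat

/-!
# P088, stage 3: turning on a constant field in both slots (row EP-C-TURN)

For the field `θ v` (`v` a constant vector, the same in both slots) the error densities of the
multiplier identity are computed exactly and the two slots are summed.  With
`g = (D_σ θ - D_τ θ) / 2`, `h = D_σ θ + D_τ θ` the sum is bilinear in `(A - B, A + B)`, up to
terms with `h` and with the curvature errors.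
-/

open MeasureTheory Set Filter
open scoped ContDiff Topology

noncomputable section

namespace Vale.Agent.P088.R2.H437.T

open Vale.Agent.P088.R2.H961.GW Vale.Agent.P088.R2.H960.W

/-! ### Algebra -/

section alg

variable {ι : Type*} [Fintype ι]

/-- `(p·Y) (v·Y) - (v·p) |Y|² / 2`. -/
def mm (v p Y : ι → ℝ) : ℝ :=
  (∑ i, p i * Y i) * (∑ i, v i * Y i) - 1 / 2 * ((∑ i, v i * p i) * ∑ i, Y i ^ 2)

/-- `|Y|²`. -/
def nq (Y : ι → ℝ) : ℝ := ∑ i, Y i ^ 2

lemma nq_nonneg (Y : ι → ℝ) : 0 ≤ nq Y := Finset.sum_nonneg fun _ _ => sq_nonneg _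

lemma dot_sq (p q : ι → ℝ) : (∑ i, p i * q i) ^ 2 ≤ nq p * nq q :=
  Finset.sum_mul_sq_le_sq_mul_sq _ _ _

lemma dot_abs (p q : ι → ℝ) : |∑ i, p i * q i| ≤ √(nq p) * √(nq q) := by
  rw [← Real.sqrt_mul (nq_nonneg p), ← Real.sqrt_sq_eq_abs]
  exact Real.sqrt_le_sqrt (dot_sq p q)

lemma mm_add (v p q Y : ι → ℝ) : mm v (fun i => p i + q i) Y = mm v p Y + mm v q Y := by
  unfold mm
  simp only [add_mul, mul_add, Finset.sum_add_distrib]
  ring

lemma mm_smul (v p Y : ι → ℝ) (t : ℝ) : mm v (fun i => t * p i) Y = t * mm v p Y := by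
  unfold mm
  have e1 : ∑ i, t * p i * Y i = t * ∑ i, p i * Y i := by
    rw [Finset.mul_sum]; exact Finset.sum_congr rfl fun i _ => by ring
  have e2 : ∑ i, v i * (t * p i) = t * ∑ i, v i * p i := by
    rw [Finset.mul_sum]; exact Finset.sum_congr rfl fun i _ => by ring
  rw [e1, e2]
  ring

/-- The difference of the two slots is bilinear in `(A - B, A + B)`. -/
lemma mm_sub (v p A B : ι → ℝ) : mm v p A - mm v p B =
    1 / 2 * ((∑ i, p i * (A i - B i)) * (∑ i, v i * (A i + B i)) +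
      (∑ i, p i * (A i + B i)) * (∑ i, v i * (A i - B i)) -
      (∑ i, v i * p i) * ∑ i, (A i - B i) * (A i + B i)) := by
  have e : ∑ i, (A i - B i) * (A i + B i) = (∑ i, A i ^ 2) - ∑ i, B i ^ 2 := by
    rw [← Finset.sum_sub_distrib]; exact Finset.sum_congr rfl fun i _ => by ring
  unfold mm
  rw [e]
  simp only [mul_sub, mul_add, Finset.sum_sub_distrib, Finset.sum_add_distrib]
  ring

lemma mm_bd (v p Y : ι → ℝ) : |mm v p Y| ≤ 3 / 2 * (√(nq v) * √(nq p)) * nq Y := by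
  have h1 := dot_abs p Y
  have h2 := dot_abs v Y
  have h3 := dot_abs v p
  have hp := Real.sqrt_nonneg (nq p)
  have hv := Real.sqrt_nonneg (nq v)
  have hY := Real.sqrt_nonneg (nq Y)
  have hq := Real.mul_self_sqrt (nq_nonneg Y)
  have a1 : |(∑ i, p i * Y i) * (∑ i, v i * Y i)| ≤ (√(nq p) * √(nq Y)) * (√(nq v) * √(nq Y)) := by
    rw [abs_mul]; exact mul_le_mul h1 h2 (abs_nonneg _) (by positivity)
  have a2 : |1 / 2 * ((∑ i, v i * p i) * nq Y)| ≤ 1 / 2 * ((√(nq v) * √(nq p)) * nq Y) := by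
    rw [abs_mul, abs_of_nonneg (by norm_num : (0:ℝ) ≤ 1 / 2), abs_mul,
      abs_of_nonneg (nq_nonneg Y)]
    exact mul_le_mul_of_nonneg_left (mul_le_mul_of_nonneg_right h3 (nq_nonneg Y)) (by norm_num)
  unfold mm
  refine (abs_sub _ _).trans ?_
  refine (add_le_add a1 a2).trans (le_of_eq ?_)
  rw [show (√(nq p) * √(nq Y)) * (√(nq v) * √(nq Y)) =
    √(nq p) * √(nq v) * (√(nq Y) * √(nq Y)) by ring, hq]
  ring

/-- The bound of the difference. -/
lemma mm_sub_bd (v p A B : ι → ℝ) : |mm v p A - mm v p B| ≤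
    3 / 2 * (√(nq v) * √(nq p)) * (√(nq fun i => A i - B i) * √(nq fun i => A i + B i)) := by
  rw [mm_sub]
  set D := √(nq fun i => A i - B i) with hD
  set S := √(nq fun i => A i + B i) with hS
  have D0 : 0 ≤ D := Real.sqrt_nonneg _
  have S0 : 0 ≤ S := Real.sqrt_nonneg _
  have hp := Real.sqrt_nonneg (nq p)
  have hv := Real.sqrt_nonneg (nq v)
  have h1 : |∑ i, p i * (A i - B i)| ≤ √(nq p) * D := dot_abs p fun i => A i - B i
  have h2 : |∑ i, p i * (A i + B i)| ≤ √(nq p) * S := dot_abs p fun i => A i + B i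
  have h3 : |∑ i, v i * (A i - B i)| ≤ √(nq v) * D := dot_abs v fun i => A i - B i
  have h4 : |∑ i, v i * (A i + B i)| ≤ √(nq v) * S := dot_abs v fun i => A i + B i
  have h5 : |∑ i, v i * p i| ≤ √(nq v) * √(nq p) := dot_abs v p
  have h6 : |∑ i, (A i - B i) * (A i + B i)| ≤ D * S :=
    dot_abs (fun i => A i - B i) fun i => A i + B i
  have b1 : |(∑ i, p i * (A i - B i)) * (∑ i, v i * (A i + B i))| ≤
      (√(nq p) * D) * (√(nq v) * S) := by
    rw [abs_mul]; exact mul_le_mul h1 h4 (abs_nonneg _) (by positivity)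
  have b2 : |(∑ i, p i * (A i + B i)) * (∑ i, v i * (A i - B i))| ≤
      (√(nq p) * S) * (√(nq v) * D) := by
    rw [abs_mul]; exact mul_le_mul h2 h3 (abs_nonneg _) (by positivity)
  have b3 : |(∑ i, v i * p i) * ∑ i, (A i - B i) * (A i + B i)| ≤
      (√(nq v) * √(nq p)) * (D * S) := by
    rw [abs_mul]; exact mul_le_mul h5 h6 (abs_nonneg _) (by positivity)
  rw [abs_mul, abs_of_nonneg (by norm_num : (0:ℝ) ≤ 1 / 2)]
  have := (abs_sub ((∑ i, p i * (A i - B i)) * (∑ i, v i * (A i + B i)) +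
      (∑ i, p i * (A i + B i)) * (∑ i, v i * (A i - B i)))
      ((∑ i, v i * p i) * ∑ i, (A i - B i) * (A i + B i))).trans
    (add_le_add ((abs_add_le _ _).trans (add_le_add b1 b2)) b3)
  nlinarith [this]

end alg

/-! ### The field `θ v` in general slots -/

variable {E ι : Type*} [NormedAddCommGroup E] [NormedSpace ℝ E] [Fintype ι]

/-- The field `θ v`. -/
def cf (v : ι → ℝ) (θ : E → ℝ) : ι → E → ℝ := fun l z => v l * θ z

/-- `(D_σ θ - D_τ θ) / 2`. -/
def gD (σ τ : Sl E ι) (θ : E → ℝ) (z : E) (i : ι) : ℝ := (σ.D i θ z - τ.D i θ z) / 2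

/-- `D_σ θ + D_τ θ`. -/
def hD (σ τ : Sl E ι) (θ : E → ℝ) (z : E) (i : ι) : ℝ := σ.D i θ z + τ.D i θ z

section pw

variable {σ τ : Sl E ι} {U : Set E} {θ W a f g v₁ v₂ : E → ℝ} {v : ι → ℝ} {z : E}

omit [Fintype ι] in
lemma s_cf (hθ : Sm U θ) (l : ι) : Sm U (cf v θ l) := contDiffOn_const.mul hθ

omit [Fintype ι] in
lemma D_cf (σ : Sl E ι) (hU : IsOpen U) (hθ : Sm U θ) (i l : ι) (hz : z ∈ U) :
    σ.D i (cf v θ l) z = v l * σ.D i θ z := D_cmul σ hU (v l) hθ i hz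

/-- The curvature errors of `eC` for the field `θ v`. -/
def er [DecidableEq ι] (σ : Sl E ι) (v : ι → ℝ) (θ v₁ W a : E → ℝ) (z : E) : ℝ :=
  (∑ i, ∑ j, (σ.s i j z - if i = j then 1 else 0) * σ.D i θ z * YY σ W a j z) *
      (∑ l, v l * YY σ W a l z) -
    1 / 2 * ((∑ l, v l * σ.D l θ z) * (sYY σ W a z - ∑ i, YY σ W a i z ^ 2)) -
    1 / 2 * (θ z * (∑ l, σ.k l z * v l) * sYY σ W a z) -
    1 / 2 * (θ z * ∑ l, v l * ∑ i, ∑ j, σ.D l (σ.s i j) z * YY σ W a i z * YY σ W a j z) +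
    θ z * ((∑ i, ∑ j, σ.s i j z * eta σ i z * YY σ W a j z) * ∑ l, v l * YY σ W a l z) -
    θ z * ((∑ l, v l * eta σ l z) * sYY σ W a z) -
    v₁ z * a z * (θ z * ∑ l, v l * YY σ W a l z)

variable [DecidableEq ι]

/-- **The error density of one slot for the field `θ v`.** -/
theorem eC_cf (σ : Sl E ι) (hU : IsOpen U) (hθ : Sm U θ) (hz : z ∈ U) :
    eC σ (cf v θ) v₁ W a z =
      mm v (fun i => σ.D i θ z) (fun i => YY σ W a i z) + er σ v θ v₁ W a z := by
  set Y : ι → ℝ := fun i => YY σ W a i z with hY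
  set p : ι → ℝ := fun i => σ.D i θ z with hp
  have hYi : ∀ i, YY σ W a i z = Y i := fun i => rfl
  have hpi : ∀ i, σ.D i θ z = p i := fun i => rfl
  have c0 : cY σ (cf v θ) W a z = θ z * ∑ l, v l * Y l := by
    unfold cY cf
    rw [Finset.mul_sum]
    exact Finset.sum_congr rfl fun l _ => by rw [hYi]; ring
  have t1 : ∑ i, ∑ j, ∑ l, σ.s i j z * σ.D i (cf v θ l) z * YY σ W a j z * YY σ W a l z =
      (∑ i, ∑ j, σ.s i j z * p i * Y j) * ∑ l, v l * Y l := by
    rw [Finset.sum_mul]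
    refine Finset.sum_congr rfl fun i _ => ?_
    rw [Finset.sum_mul]
    refine Finset.sum_congr rfl fun j _ => ?_
    rw [Finset.mul_sum]
    refine Finset.sum_congr rfl fun l _ => ?_
    rw [D_cf σ hU hθ i l hz, hYi, hYi, hpi]
    ring
  have t1' : ∑ i, ∑ j, (σ.s i j z - if i = j then 1 else 0) * p i * Y j =
      (∑ i, ∑ j, σ.s i j z * p i * Y j) - ∑ i, p i * Y i := by
    have : ∀ i, ∑ j, (σ.s i j z - if i = j then 1 else 0) * p i * Y j =
        (∑ j, σ.s i j z * p i * Y j) - p i * Y i := by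
      intro i
      have e : ∀ j, (σ.s i j z - if i = j then 1 else 0) * p i * Y j =
          σ.s i j z * p i * Y j - if i = j then p i * Y j else 0 := by
        intro j
        split_ifs <;> ring
      simp only [e, Finset.sum_sub_distrib, Finset.sum_ite_eq, Finset.mem_univ, if_true]
    simp only [this, Finset.sum_sub_distrib]
  have t2 : ∑ l, (σ.D l (cf v θ l) z + σ.k l z * cf v θ l z) =
      (∑ l, v l * p l) + θ z * ∑ l, σ.k l z * v l := by
    rw [Finset.mul_sum, ← Finset.sum_add_distrib]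
    refine Finset.sum_congr rfl fun l _ => ?_
    rw [D_cf σ hU hθ l l hz, hpi]
    unfold cf
    ring
  have t3 : ∑ l, ∑ i, ∑ j, cf v θ l z * σ.D l (σ.s i j) z * YY σ W a i z * YY σ W a j z =
      θ z * ∑ l, v l * ∑ i, ∑ j, σ.D l (σ.s i j) z * YY σ W a i z * YY σ W a j z := by
    simp only [Finset.mul_sum]
    refine Finset.sum_congr rfl fun l _ => Finset.sum_congr rfl fun i _ =>
      Finset.sum_congr rfl fun j _ => ?_
    unfold cf
    ring
  have t4 : ∑ l, cf v θ l z * eta σ l z = θ z * ∑ l, v l * eta σ l z := by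
    rw [Finset.mul_sum]
    refine Finset.sum_congr rfl fun l _ => ?_
    unfold cf
    ring
  unfold eC er mm
  simp only [hYi, hpi] at t1 t3 ⊢
  rw [t1, t1', t2, t3, t4, c0]
  ring

omit [DecidableEq ι] in
/-- **The zero order density of one slot for the field `θ v`.** -/
theorem dF_cf (σ : Sl E ι) (hU : IsOpen U) (hθ : Sm U θ) (hF : Sm U (σ.F W)) (hz : z ∈ U) :
    dF σ (cf v θ) W z = (∑ j, v j * σ.D j θ z) * σ.F W z +
      θ z * ∑ j, v j * (σ.D j (σ.F W) z + σ.k j z * σ.F W z) := by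
  unfold dF
  rw [Finset.sum_mul, Finset.mul_sum, ← Finset.sum_add_distrib]
  refine Finset.sum_congr rfl fun j _ => ?_
  rw [D_mul σ hU hF (s_cf hθ j) j hz, D_cf σ hU hθ j j hz]
  unfold cf
  ring

/-- **The two slots together, exact.** -/
theorem turn (σ τ : Sl E ι) (hU : IsOpen U) (hθ : Sm U θ) (hz : z ∈ U) :
    eC σ (cf v θ) v₁ W f z + eC τ (cf v θ) v₂ W g z =
      (mm v (gD σ τ θ z) (fun i => YY σ W f i z) - mm v (gD σ τ θ z) (fun i => YY τ W g i z)) +
      1 / 2 * (mm v (hD σ τ θ z) (fun i => YY σ W f i z) +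
        mm v (hD σ τ θ z) (fun i => YY τ W g i z)) +
      (er σ v θ v₁ W f z + er τ v θ v₂ W g z) := by
  rw [eC_cf σ hU hθ hz, eC_cf τ hU hθ hz]
  have h1 : ∀ Y, mm v (fun i => σ.D i θ z) Y = mm v (gD σ τ θ z) Y + 1 / 2 * mm v (hD σ τ θ z) Y := by
    intro Y
    rw [← mm_smul, ← mm_add]
    congr 1
    funext i
    unfold gD hD
    ring
  have h2 : ∀ Y, mm v (fun i => τ.D i θ z) Y =
      -mm v (gD σ τ θ z) Y + 1 / 2 * mm v (hD σ τ θ z) Y := by
    intro Y
    rw [← mm_smul, ← neg_one_mul, ← mm_smul, ← mm_add]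
    congr 1
    funext i
    unfold gD hD
    ring
  rw [h1, h2]
  ring

omit [DecidableEq ι] in
/-- **The zero order densities of the two slots together, exact.** -/
theorem turnF (σ τ : Sl E ι) (hU : IsOpen U) (hθ : Sm U θ) (hF : Sm U (σ.F W))
    (hF' : Sm U (τ.F W)) (hz : z ∈ U) (x y : ℝ) :
    dF σ (cf v θ) W z * x ^ 2 + dF τ (cf v θ) W z * y ^ 2 =
      (∑ j, v j * gD σ τ θ z j) * (σ.F W z * x ^ 2 - τ.F W z * y ^ 2) +
      1 / 2 * (∑ j, v j * hD σ τ θ z j) * (σ.F W z * x ^ 2 + τ.F W z * y ^ 2) +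
      θ z * ((∑ j, v j * (σ.D j (σ.F W) z + σ.k j z * σ.F W z)) * x ^ 2 +
        (∑ j, v j * (τ.D j (τ.F W) z + τ.k j z * τ.F W z)) * y ^ 2) := by
  rw [dF_cf σ hU hθ hF hz, dF_cf τ hU hθ hF' hz]
  have h1 : ∑ j, v j * σ.D j θ z = ∑ j, v j * gD σ τ θ z j + 1 / 2 * ∑ j, v j * hD σ τ θ z j := by
    rw [Finset.mul_sum, ← Finset.sum_add_distrib]
    refine Finset.sum_congr rfl fun j _ => ?_
    unfold gD hD
    ring
  have h2 : ∑ j, v j * τ.D j θ z = -∑ j, v j * gD σ τ θ z j + 1 / 2 * ∑ j, v j * hD σ τ θ z j := by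
    rw [Finset.mul_sum, ← Finset.sum_neg_distrib, ← Finset.sum_add_distrib]
    refine Finset.sum_congr rfl fun j _ => ?_
    unfold gD hD
    ring
  rw [h1, h2]
  ring

/-! ### Bounds -/

omit [DecidableEq ι] in
lemma l1_le (Y : ι → ℝ) : (∑ i, |Y i|) ^ 2 ≤ Fintype.card ι * nq Y := L1_sq Y

omit [DecidableEq ι] in
lemma l1_sqrt (Y : ι → ℝ) : ∑ i, |Y i| ≤ Fintype.card ι * √(nq Y) := by
  have h : ∀ i, |Y i| ≤ √(nq Y) := by
    intro i
    rw [← Real.sqrt_sq_eq_abs]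
    exact Real.sqrt_le_sqrt (Finset.single_le_sum (f := fun i => Y i ^ 2)
      (fun i _ => sq_nonneg _) (Finset.mem_univ i))
  calc ∑ i, |Y i| ≤ ∑ _i : ι, √(nq Y) := Finset.sum_le_sum fun i _ => h i
    _ = _ := by rw [Finset.sum_const, Finset.card_univ, nsmul_eq_mul]

omit [DecidableEq ι] in
lemma dot_le {B : ℝ} (hB : 0 ≤ B) (k v : ι → ℝ) (hk : ∀ i, |k i| ≤ B) :
    |∑ i, k i * v i| ≤ B * (Fintype.card ι * √(nq v)) := by
  calc |∑ i, k i * v i| ≤ ∑ i, |k i * v i| := Finset.abs_sum_le_sum_abs _ _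
    _ ≤ ∑ i, B * |v i| := Finset.sum_le_sum fun i _ => by
        rw [abs_mul]; exact mul_le_mul_of_nonneg_right (hk i) (abs_nonneg _)
    _ = B * ∑ i, |v i| := by rw [Finset.mul_sum]
    _ ≤ _ := mul_le_mul_of_nonneg_left (l1_sqrt v) hB

omit [DecidableEq ι] in
/-- The arithmetic of `er_bd`. -/
lemma er_num {N ε P y V T B : ℝ} (N1 : 1 ≤ N) (hε : 0 ≤ ε) (P0 : 0 ≤ P) (y0 : 0 ≤ y) (V0 : 0 ≤ V)
    (T0 : 0 ≤ T) (hB : 0 ≤ B) :
    ε * (N * P * (N * y)) * (V * y) + 1 / 2 * ((V * P) * (ε * (N * y * (N * y)))) +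
      1 / 2 * (T * (B * (N * V)) * (2 * N ^ 2 * (y * y))) +
      1 / 2 * (T * ((B * (N * y * (N * y))) * (N * V))) +
      T * ((2 * B * N * (N * y)) * (V * y)) + T * ((B * (N * V)) * (2 * N ^ 2 * (y * y))) ≤
    (2 * N ^ 2 * ε * (V * P) + 6 * N ^ 3 * (B * T * V)) * (y * y) := by
  have k1 : 0 ≤ N ^ 2 * ε * (V * P) * (y * y) := by positivity
  have k2 : 0 ≤ T * B * V * (y * y) := by positivity
  have k3 : N ^ 2 ≤ N ^ 3 := pow_le_pow_right₀ N1 (by norm_num)
  have k4 : N ^ 2 * (T * B * V * (y * y)) ≤ N ^ 3 * (T * B * V * (y * y)) :=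
    mul_le_mul_of_nonneg_right k3 k2
  have k5 : 0 ≤ N ^ 3 * (T * B * V * (y * y)) := by positivity
  have e : ε * (N * P * (N * y)) * (V * y) + 1 / 2 * ((V * P) * (ε * (N * y * (N * y)))) +
      1 / 2 * (T * (B * (N * V)) * (2 * N ^ 2 * (y * y))) +
      1 / 2 * (T * ((B * (N * y * (N * y))) * (N * V))) +
      T * ((2 * B * N * (N * y)) * (V * y)) + T * ((B * (N * V)) * (2 * N ^ 2 * (y * y))) =
      3 / 2 * (N ^ 2 * ε * (V * P) * (y * y)) + 7 / 2 * (N ^ 3 * (T * B * V * (y * y))) +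
        2 * (N ^ 2 * (T * B * V * (y * y))) := by ring
  rw [e]
  have e' : (2 * N ^ 2 * ε * (V * P) + 6 * N ^ 3 * (B * T * V)) * (y * y) =
      2 * (N ^ 2 * ε * (V * P) * (y * y)) + 6 * (N ^ 3 * (T * B * V * (y * y))) := by ring
  rw [e']
  linarith

/-- The bound of the curvature errors, algebra. -/
theorem er_alg {ε B : ℝ} (hε : 0 ≤ ε) (hε1 : ε ≤ 1) (hB : 0 ≤ B) (s : ι → ι → ℝ)
    (ds : ι → ι → ι → ℝ) (k η p v Y : ι → ℝ) (t x : ℝ)
    (hs : ∀ i j, |s i j - if i = j then 1 else 0| ≤ ε) (hk : ∀ i, |k i| ≤ B)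
    (he : ∀ i, |η i| ≤ B) (hd : ∀ l i j, |ds l i j| ≤ B) :
    |(∑ i, ∑ j, (s i j - if i = j then 1 else 0) * p i * Y j) * (∑ l, v l * Y l) -
      1 / 2 * ((∑ l, v l * p l) * ((∑ i, ∑ j, s i j * Y i * Y j) - ∑ i, Y i ^ 2)) -
      1 / 2 * (t * (∑ l, k l * v l) * (∑ i, ∑ j, s i j * Y i * Y j)) -
      1 / 2 * (t * ∑ l, v l * ∑ i, ∑ j, ds l i j * Y i * Y j) +
      t * ((∑ i, ∑ j, s i j * η i * Y j) * ∑ l, v l * Y l) -
      t * ((∑ l, v l * η l) * (∑ i, ∑ j, s i j * Y i * Y j)) -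
      x * (t * ∑ l, v l * Y l)| ≤
      (2 * (Fintype.card ι : ℝ) ^ 2 * ε * (√(nq v) * √(nq p)) +
        6 * (Fintype.card ι : ℝ) ^ 3 * (B * |t| * √(nq v))) * nq Y +
      |x| * (|t| * (√(nq v) * √(nq Y))) := by
  rcases Nat.eq_zero_or_pos (Fintype.card ι) with h0 | h0
  · have hemp : IsEmpty ι := Fintype.card_eq_zero_iff.1 h0
    simp only [Finset.univ_eq_empty, Finset.sum_empty, mul_zero, sub_zero, add_zero,
      abs_zero]
    have := nq_nonneg Y
    positivity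
  set N : ℝ := (Fintype.card ι : ℝ) with hN
  set V := √(nq v) with hV
  set P := √(nq p) with hP
  set y := √(nq Y) with hy
  have V0 : 0 ≤ V := Real.sqrt_nonneg _
  have P0 : 0 ≤ P := Real.sqrt_nonneg _
  have y0 : 0 ≤ y := Real.sqrt_nonneg _
  have N0 : 0 ≤ N := Nat.cast_nonneg _
  have yy : y * y = nq Y := Real.mul_self_sqrt (nq_nonneg Y)
  have N1 : 1 ≤ N := by rw [hN]; exact_mod_cast h0
  have sY : ∑ i, |Y i| ≤ N * y := l1_sqrt Y
  have sP : ∑ i, |p i| ≤ N * P := l1_sqrt p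
  have SY0 : 0 ≤ ∑ i, |Y i| := Finset.sum_nonneg fun i _ => abs_nonneg _
  have SP0 : 0 ≤ ∑ i, |p i| := Finset.sum_nonneg fun i _ => abs_nonneg _
  have q1 : |∑ l, v l * Y l| ≤ V * y := dot_abs v Y
  have q2 : |∑ l, v l * p l| ≤ V * P := dot_abs v p
  have q3 : |∑ i, ∑ j, (s i j - if i = j then 1 else 0) * p i * Y j| ≤ ε * (N * P * (N * y)) :=
    (abs_sum2_le _ hs p Y).trans (mul_le_mul_of_nonneg_left
      (mul_le_mul sP sY SY0 (by positivity)) hε)
  have hnq : ∑ i, Y i ^ 2 = y * y := by rw [yy]; rfl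
  have q4 : |(∑ i, ∑ j, s i j * Y i * Y j) - ∑ i, Y i ^ 2| ≤ ε * (N * y * (N * y)) := by
    have e : (∑ i, ∑ j, s i j * Y i * Y j) - ∑ i, Y i ^ 2 =
        ∑ i, ∑ j, (s i j - if i = j then 1 else 0) * Y i * Y j := by
      rw [← Finset.sum_sub_distrib]
      refine Finset.sum_congr rfl fun i _ => ?_
      have e1 : ∀ j, (s i j - if i = j then 1 else 0) * Y i * Y j =
          s i j * Y i * Y j - if i = j then Y i * Y j else 0 := by
        intro j
        split_ifs <;> ring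
      simp only [e1, Finset.sum_sub_distrib, Finset.sum_ite_eq, Finset.mem_univ, if_true]
      ring
    rw [e]
    exact (abs_sum2_le _ hs Y Y).trans (mul_le_mul_of_nonneg_left
      (mul_le_mul sY sY SY0 (by positivity)) hε)
  have q5 : |∑ i, ∑ j, s i j * Y i * Y j| ≤ 2 * N ^ 2 * (y * y) := by
    have : ∑ i, ∑ j, s i j * Y i * Y j =
        ((∑ i, ∑ j, s i j * Y i * Y j) - ∑ i, Y i ^ 2) + y * y := by rw [hnq]; ring
    rw [this]
    refine (abs_add_le _ _).trans ?_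
    rw [abs_of_nonneg (mul_nonneg y0 y0)]
    have h1 : ε * (N * y * (N * y)) ≤ N ^ 2 * (y * y) := by
      have : ε * (N * y * (N * y)) = ε * (N ^ 2 * (y * y)) := by ring
      rw [this]
      exact mul_le_of_le_one_left (by positivity) hε1
    have h2 : y * y ≤ N ^ 2 * (y * y) := by
      have : 1 ≤ N ^ 2 := one_le_pow₀ N1
      exact le_mul_of_one_le_left (by positivity) this
    linarith
  have q6 : |∑ l, k l * v l| ≤ B * (N * V) := dot_le hB _ v hk
  have q7 : |∑ l, v l * η l| ≤ B * (N * V) := by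
    have := dot_le hB η v he
    simpa only [mul_comm] using this
  have q8 : |∑ l, v l * ∑ i, ∑ j, ds l i j * Y i * Y j| ≤
      (B * (N * y * (N * y))) * (N * V) := by
    have h1 : ∀ l, |∑ i, ∑ j, ds l i j * Y i * Y j| ≤ B * (N * y * (N * y)) := fun l =>
      (abs_sum2_le _ (hd l) Y Y).trans (mul_le_mul_of_nonneg_left
        (mul_le_mul sY sY SY0 (by positivity)) hB)
    have := dot_le (by positivity) (fun l => ∑ i, ∑ j, ds l i j * Y i * Y j) v h1
    simpa only [mul_comm (v _)] using this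
  have q9 : |∑ i, ∑ j, s i j * η i * Y j| ≤ 2 * B * N * (N * y) := by
    have hS : ∀ i j, |s i j| ≤ 2 := by
      intro i j
      have h1 := hs i j
      have h2 : |(if i = j then (1:ℝ) else 0)| ≤ 1 := by split_ifs <;> norm_num
      have h3 : s i j = (s i j - if i = j then 1 else 0) + if i = j then 1 else 0 := by ring
      rw [h3]
      exact (abs_add_le _ _).trans (by linarith)
    have h1 := abs_sum2_le (M := 2 * B) (fun i j => s i j * η i) (fun i j => by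
      rw [abs_mul]; exact mul_le_mul (hS i j) (he i) (abs_nonneg _) (by norm_num))
      (fun _ => (1 : ℝ)) Y
    simp only [mul_one, abs_one, Finset.sum_const, Finset.card_univ, nsmul_eq_mul] at h1
    refine h1.trans ?_
    have h2 : N * ∑ j, |Y j| ≤ N * (N * y) := mul_le_mul_of_nonneg_left sY N0
    have h3 : 0 ≤ 2 * B := by positivity
    calc 2 * B * (N * ∑ j, |Y j|) ≤ 2 * B * (N * (N * y)) := mul_le_mul_of_nonneg_left h2 h3
      _ = _ := by ring
  have t0 := abs_nonneg t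
  set T := |t| with hT
  have e1 : |(∑ i, ∑ j, (s i j - if i = j then 1 else 0) * p i * Y j) *
      (∑ l, v l * Y l)| ≤ ε * (N * P * (N * y)) * (V * y) := by
    rw [abs_mul]; exact mul_le_mul q3 q1 (abs_nonneg _) (by positivity)
  have e2 : |1 / 2 * ((∑ l, v l * p l) * ((∑ i, ∑ j, s i j * Y i * Y j) - ∑ i, Y i ^ 2))| ≤
      1 / 2 * ((V * P) * (ε * (N * y * (N * y)))) := by
    rw [abs_mul, abs_of_nonneg (by norm_num : (0:ℝ) ≤ 1 / 2), abs_mul]
    exact mul_le_mul_of_nonneg_left (mul_le_mul q2 q4 (abs_nonneg _) (by positivity)) (by norm_num)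
  have e3 : |1 / 2 * (t * (∑ l, k l * v l) * (∑ i, ∑ j, s i j * Y i * Y j))| ≤
      1 / 2 * (T * (B * (N * V)) * (2 * N ^ 2 * (y * y))) := by
    rw [abs_mul, abs_of_nonneg (by norm_num : (0:ℝ) ≤ 1 / 2), abs_mul, abs_mul]
    exact mul_le_mul_of_nonneg_left (mul_le_mul (mul_le_mul_of_nonneg_left q6 t0) q5
      (abs_nonneg _) (by positivity)) (by norm_num)
  have e4 : |1 / 2 * (t * ∑ l, v l * ∑ i, ∑ j, ds l i j * Y i * Y j)| ≤
      1 / 2 * (T * ((B * (N * y * (N * y))) * (N * V))) := by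
    rw [abs_mul, abs_of_nonneg (by norm_num : (0:ℝ) ≤ 1 / 2), abs_mul]
    exact mul_le_mul_of_nonneg_left (mul_le_mul_of_nonneg_left q8 t0) (by norm_num)
  have e5 : |t * ((∑ i, ∑ j, s i j * η i * Y j) * ∑ l, v l * Y l)| ≤
      T * ((2 * B * N * (N * y)) * (V * y)) := by
    rw [abs_mul, abs_mul]
    exact mul_le_mul_of_nonneg_left (mul_le_mul q9 q1 (abs_nonneg _) (by positivity)) t0
  have e6 : |t * ((∑ l, v l * η l) * (∑ i, ∑ j, s i j * Y i * Y j))| ≤
      T * ((B * (N * V)) * (2 * N ^ 2 * (y * y))) := by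
    rw [abs_mul, abs_mul]
    exact mul_le_mul_of_nonneg_left (mul_le_mul q7 q5 (abs_nonneg _) (by positivity)) t0
  have e7 : |x * (t * ∑ l, v l * Y l)| ≤ |x| * (T * (V * y)) := by
    rw [abs_mul, abs_mul t]
    exact mul_le_mul_of_nonneg_left (mul_le_mul_of_nonneg_left q1 t0) (abs_nonneg _)
  have num := er_num N1 hε P0 y0 V0 t0 hB
  rw [← yy]
  refine le_trans ?_ (add_le_add num le_rfl)
  refine (abs_sub _ _).trans (add_le_add ?_ e7)
  refine (abs_sub _ _).trans (add_le_add ?_ e6)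
  refine (abs_add_le _ _).trans (add_le_add ?_ e5)
  refine (abs_sub _ _).trans (add_le_add ?_ e4)
  refine (abs_sub _ _).trans (add_le_add ?_ e3)
  exact (abs_sub _ _).trans (add_le_add e1 e2)

/-- **The bound of the curvature errors.** -/
theorem er_bd {ε B : ℝ} (hε : 0 ≤ ε) (hε1 : ε ≤ 1) (hB : 0 ≤ B)
    (hs : ∀ i j, |σ.s i j z - if i = j then 1 else 0| ≤ ε) (hk : ∀ i, |σ.k i z| ≤ B)
    (he : ∀ i, |eta σ i z| ≤ B) (hd : ∀ l i j, |σ.D l (σ.s i j) z| ≤ B) :
    |er σ v θ v₁ W a z| ≤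
      (2 * (Fintype.card ι : ℝ) ^ 2 * ε * (√(nq v) * √(nq fun i => σ.D i θ z)) +
        6 * (Fintype.card ι : ℝ) ^ 3 * (B * |θ z| * √(nq v))) * (nq fun i => YY σ W a i z) +
      |v₁ z * a z| * (|θ z| * (√(nq v) * √(nq fun i => YY σ W a i z))) :=
  er_alg hε hε1 hB (fun i j => σ.s i j z) (fun l i j => σ.D l (σ.s i j) z) (fun i => σ.k i z)
    (fun i => eta σ i z) (fun i => σ.D i θ z) v (fun i => YY σ W a i z) (θ z) (v₁ z * a z)
    hs hk he hd

/-- **The two slots together, bound.** -/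
theorem turn_bd (σ τ : Sl E ι) (hU : IsOpen U) (hθ : Sm U θ) (hz : z ∈ U) :
    |eC σ (cf v θ) v₁ W f z + eC τ (cf v θ) v₂ W g z| ≤
      3 / 2 * (√(nq v) * √(nq (gD σ τ θ z))) *
        (√(nq fun i => YY σ W f i z - YY τ W g i z) *
          √(nq fun i => YY σ W f i z + YY τ W g i z)) +
      3 / 4 * (√(nq v) * √(nq (hD σ τ θ z))) *
        ((nq fun i => YY σ W f i z) + nq fun i => YY τ W g i z) +
      (|er σ v θ v₁ W f z| + |er τ v θ v₂ W g z|) := by
  rw [turn σ τ hU hθ hz]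
  have h1 := mm_sub_bd v (gD σ τ θ z) (fun i => YY σ W f i z) fun i => YY τ W g i z
  have h2 := mm_bd v (hD σ τ θ z) fun i => YY σ W f i z
  have h3 := mm_bd v (hD σ τ θ z) fun i => YY τ W g i z
  refine (abs_add_le _ _).trans (add_le_add ((abs_add_le _ _).trans (add_le_add h1 ?_))
    (abs_add_le _ _))
  rw [abs_mul, abs_of_nonneg (by norm_num : (0:ℝ) ≤ 1 / 2)]
  have h4 := (abs_add_le (mm v (hD σ τ θ z) fun i => YY σ W f i z)
    (mm v (hD σ τ θ z) fun i => YY τ W g i z)).trans (add_le_add h2 h3)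
  nlinarith [h4]

end pw

end Vale.Agent.P088.R2.H437.T
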