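import Vale.Agent.P088.R2.H437.C.Turn
import Vale.Agent.P088.R2.H86.Z.Abs

/-!
# P088, stage 3: the turn-on terms of a constant field, flat slots and helper86's letters
-/

open MeasureTheory Set Filter
open scoped ContDiff Topology

noncomputable section

namespace Vale.Agent.P088.R2.H437.T

open Vale.Agent.P088.LR Vale.Agent.P088.HY
open Vale.Agent.P088.R2.H961.GW Vale.Agent.P088.R2.H960.W
open Vale.Agent.P088.R2.H644 Vale.Agent.P088.R2.H644.Ch
open Vale.Agent.P088.R2.H86.Z

/-! ### `HP.on` for a field which is constant up to a small error -/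

section hp

variable {E ι : Type*} [NormedAddCommGroup E] [NormedSpace ℝ E] [Fintype ι]
  {σ τ : Sl E ι} {χ : E → ℝ} {c c' : ι → E → ℝ} {v : ι → ℝ} {z : E}

/-- `onf` is the form `mm` plus errors. -/
lemma onf_flat (hs : ∀ u w : ι → ℝ, ∑ i, ∑ j, σ.s i j z * u i * w j = ∑ i, u i * w i)
    (u : ι → ℝ) :
    onf σ c χ z u = (∑ i, σ.D i χ z * u i) * (∑ l, c l z * u l) -
      1 / 2 * ((∑ l, c l z * σ.D l χ z) * ∑ i, u i ^ 2) := by
  unfold onf H86.Z.cD
  have h1 := hs (fun i => σ.D i χ z) u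
  have h2 := hs u u
  rw [h1, h2]
  have : ∑ i, u i * u i = ∑ i, u i ^ 2 := Finset.sum_congr rfl fun i _ => by ring
  rw [this]

/-- The two slots, constant part of the field and the rest. -/
theorem on_split (hs : ∀ u w : ι → ℝ, ∑ i, ∑ j, σ.s i j z * u i * w j = ∑ i, u i * w i)
    (ht : ∀ u w : ι → ℝ, ∑ i, ∑ j, τ.s i j z * u i * w j = ∑ i, u i * w i) (v u u' : ι → ℝ) :
    onf σ c χ z u + onf τ c' χ z u' =
      (mm v (gD σ τ χ z) u - mm v (gD σ τ χ z) u') +
      1 / 2 * (mm v (hD σ τ χ z) u + mm v (hD σ τ χ z) u') +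
      (mm (fun l => c l z - v l) (fun i => σ.D i χ z) u +
        mm (fun l => c' l z - v l) (fun i => τ.D i χ z) u') := by
  rw [onf_flat hs, onf_flat ht]
  have h1 : mm v (gD σ τ χ z) u = mm v (fun i => σ.D i χ z) u - 1 / 2 * mm v (hD σ τ χ z) u := by
    rw [← mm_smul]
    have : mm v (fun i => σ.D i χ z) u = mm v (gD σ τ χ z) u +
        mm v (fun i => 1 / 2 * hD σ τ χ z i) u := by
      rw [← mm_add]
      congr 1
      funext i
      unfold gD hD
      ring
    linarith
  have h2 : mm v (gD σ τ χ z) u' = -mm v (fun i => τ.D i χ z) u' +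
      1 / 2 * mm v (hD σ τ χ z) u' := by
    rw [← mm_smul]
    have : mm v (fun i => 1 / 2 * hD σ τ χ z i) u' = mm v (gD σ τ χ z) u' +
        mm v (fun i => τ.D i χ z) u' := by
      rw [← mm_add]
      congr 1
      funext i
      unfold gD hD
      ring
    linarith
  rw [h1, h2]
  unfold mm
  simp only [sub_mul, Finset.sum_sub_distrib]
  ring

/-- **Bound of the turn-on form of first order.** -/
theorem on_bd (hs : ∀ u w : ι → ℝ, ∑ i, ∑ j, σ.s i j z * u i * w j = ∑ i, u i * w i)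
    (ht : ∀ u w : ι → ℝ, ∑ i, ∑ j, τ.s i j z * u i * w j = ∑ i, u i * w i) (v u u' : ι → ℝ) :
    |onf σ c χ z u + onf τ c' χ z u'| ≤
      3 / 2 * (√(nq v) * √(nq (gD σ τ χ z))) *
        (√(nq fun i => u i - u' i) * √(nq fun i => u i + u' i)) +
      3 / 4 * (√(nq v) * √(nq (hD σ τ χ z))) * (nq u + nq u') +
      3 / 2 * (√(nq fun l => c l z - v l) * √(nq fun i => σ.D i χ z)) * nq u +
      3 / 2 * (√(nq fun l => c' l z - v l) * √(nq fun i => τ.D i χ z)) * nq u' := by
  rw [on_split hs ht v]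
  have h1 := mm_sub_bd v (gD σ τ χ z) u u'
  have h2 := mm_bd v (hD σ τ χ z) u
  have h3 := mm_bd v (hD σ τ χ z) u'
  have h4 := mm_bd (fun l => c l z - v l) (fun i => σ.D i χ z) u
  have h5 := mm_bd (fun l => c' l z - v l) (fun i => τ.D i χ z) u'
  have h6 := (abs_add_le (mm v (hD σ τ χ z) u) (mm v (hD σ τ χ z) u')).trans (add_le_add h2 h3)
  have h7 : |1 / 2 * (mm v (hD σ τ χ z) u + mm v (hD σ τ χ z) u')| ≤
      3 / 4 * (√(nq v) * √(nq (hD σ τ χ z))) * (nq u + nq u') := by
    rw [abs_mul, abs_of_nonneg (by norm_num : (0:ℝ) ≤ 1 / 2)]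
    nlinarith [h6]
  have h8 := (abs_add_le (mm (fun l => c l z - v l) (fun i => σ.D i χ z) u)
    (mm (fun l => c' l z - v l) (fun i => τ.D i χ z) u')).trans (add_le_add h4 h5)
  have h9 := (abs_add_le _ _).trans (add_le_add ((abs_add_le _ _).trans (add_le_add h1 h7)) h8)
  linarith [h9]

/-- **The zero order part of the turn-on form.** -/
theorem cD_split (v : ι → ℝ) (F F' x y : ℝ) :
    H86.Z.cD σ c χ z * F * x ^ 2 + H86.Z.cD τ c' χ z * F' * y ^ 2 =
      (∑ j, v j * gD σ τ χ z j) * ((F - F') * ((x ^ 2 + y ^ 2) / 2) +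
        (F + F') * (x + y) * (x - y) / 2) +
      1 / 2 * (∑ j, v j * hD σ τ χ z j) * (F * x ^ 2 + F' * y ^ 2) +
      ((∑ l, (c l z - v l) * σ.D l χ z) * F * x ^ 2 +
        (∑ l, (c' l z - v l) * τ.D l χ z) * F' * y ^ 2) := by
  have h1 : ∑ j, v j * gD σ τ χ z j + 1 / 2 * ∑ j, v j * hD σ τ χ z j = ∑ j, v j * σ.D j χ z := by
    rw [Finset.mul_sum, ← Finset.sum_add_distrib]
    exact Finset.sum_congr rfl fun j _ => by unfold gD hD; ring
  have h2 : -∑ j, v j * gD σ τ χ z j + 1 / 2 * ∑ j, v j * hD σ τ χ z j =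
      ∑ j, v j * τ.D j χ z := by
    rw [Finset.mul_sum, ← Finset.sum_neg_distrib, ← Finset.sum_add_distrib]
    exact Finset.sum_congr rfl fun j _ => by unfold gD hD; ring
  have h3 : H86.Z.cD σ c χ z = ∑ j, v j * σ.D j χ z + ∑ l, (c l z - v l) * σ.D l χ z := by
    unfold H86.Z.cD
    rw [← Finset.sum_add_distrib]
    exact Finset.sum_congr rfl fun j _ => by ring
  have h4 : H86.Z.cD τ c' χ z = ∑ j, v j * τ.D j χ z + ∑ l, (c' l z - v l) * τ.D l χ z := by
    unfold H86.Z.cD
    rw [← Finset.sum_add_distrib]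
    exact Finset.sum_congr rfl fun j _ => by ring
  rw [h3, h4, ← h1, ← h2]
  ring

end hp

/-! ### The flat slots -/

variable {n : ℕ} {W f g θ χ : VV n → ℝ} {z : VV n}

lemma s_flat_x (z : VV n) (u w : Fin n → ℝ) :
    ∑ i, ∑ j, (fx n).s i j z * u i * w j = ∑ i, u i * w i := by
  simp [fx_s]

lemma s_flat_y (z : VV n) (u w : Fin n → ℝ) :
    ∑ i, ∑ j, (fy n).s i j z * u i * w j = ∑ i, u i * w i := by
  simp [fy_s]

lemma D_s_fx (l i j : Fin n) (z : VV n) : (fx n).D l ((fx n).s i j) z = 0 := by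
  have : (fx n).s i j = fun _ => if i = j then (1 : ℝ) else 0 := funext fun z => fx_s i j z
  rw [this, D_const]

lemma D_s_fy (l i j : Fin n) (z : VV n) : (fy n).D l ((fy n).s i j) z = 0 := by
  have : (fy n).s i j = fun _ => if i = j then (1 : ℝ) else 0 := funext fun z => fy_s i j z
  rw [this, D_const]

lemma er_fx (v : Fin n → ℝ) (θ W a : VV n → ℝ) (z : VV n) :
    er (fx n) v θ (fun _ => 0) W a z = 0 := by
  have h1 : sYY (fx n) W a z = ∑ i, YY (fx n) W a i z ^ 2 := by
    unfold sYY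
    rw [s_flat_x z (fun i => YY (fx n) W a i z) fun i => YY (fx n) W a i z]
    exact Finset.sum_congr rfl fun i _ => by ring
  have h2 : ∀ i j, (fx n).s i j z - (if i = j then (1:ℝ) else 0) = 0 := fun i j => by
    rw [fx_s]; ring
  unfold er
  simp only [h1, h2, fx_k, D_s_fx, eta_eq, fx_η]
  simp

lemma er_fy (v : Fin n → ℝ) (θ W a : VV n → ℝ) (z : VV n) :
    er (fy n) v θ (fun _ => 0) W a z = 0 := by
  have h1 : sYY (fy n) W a z = ∑ i, YY (fy n) W a i z ^ 2 := by
    unfold sYY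
    rw [s_flat_y z (fun i => YY (fy n) W a i z) fun i => YY (fy n) W a i z]
    exact Finset.sum_congr rfl fun i _ => by ring
  have h2 : ∀ i j, (fy n).s i j z - (if i = j then (1:ℝ) else 0) = 0 := fun i j => by
    rw [fy_s]; ring
  unfold er
  simp only [h1, h2, fy_k, D_s_fy, eta_eq, fy_η]
  simp

/-- **Flat: the two slots together, exact.** -/
theorem turn_flat {U : Set (VV n)} (hU : IsOpen U) (hθ : Sm U θ) (hz : z ∈ U) (v : Fin n → ℝ) :
    eC (fx n) (cf v θ) (fun _ => 0) W f z + eC (fy n) (cf v θ) (fun _ => 0) W g z =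
      (mm v (gD (fx n) (fy n) θ z) (fun i => YY (fx n) W f i z) -
        mm v (gD (fx n) (fy n) θ z) (fun i => YY (fy n) W g i z)) +
      1 / 2 * (mm v (hD (fx n) (fy n) θ z) (fun i => YY (fx n) W f i z) +
        mm v (hD (fx n) (fy n) θ z) (fun i => YY (fy n) W g i z)) := by
  rw [turn (fx n) (fy n) hU hθ hz, er_fx, er_fy]
  ring

/-- `A - B` in terms of `b = (f + g) / 2`, `c = (f - g) / 2`. -/
theorem AB_sub (hf : DifferentiableAt ℝ f z) (hg : DifferentiableAt ℝ g z) (i : Fin n) :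
    YY (fx n) W f i z - YY (fy n) W g i z =
      ((dx i (fun z => (f z - g z) / 2) z + dy i (fun z => (f z - g z) / 2) z) +
        (f z - g z) / 2 * (dx i W z + dy i W z)) +
      ((dx i (fun z => (f z + g z) / 2) z - dy i (fun z => (f z + g z) / 2) z) +
        (f z + g z) / 2 * (dx i W z - dy i W z)) := by
  have e1 : ∀ v, dd v (fun z => (f z - g z) / 2) z = (dd v f z - dd v g z) / 2 := by
    intro v
    have : (fun z => (f z - g z) / 2) = fun z => (1 / 2) * (f z - g z) := by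
      funext z; ring
    rw [this, dd_const_mul, dd_sub hf hg]
    ring
  have e2 : ∀ v, dd v (fun z => (f z + g z) / 2) z = (dd v f z + dd v g z) / 2 := by
    intro v
    have : (fun z => (f z + g z) / 2) = fun z => (1 / 2) * (f z + g z) := by
      funext z; ring
    rw [this, dd_const_mul, dd_add hf hg]
    ring
  simp only [dx_eq, dy_eq, e1, e2, YY, fx_D, fy_D]
  ring

/-- `A + B` in terms of `b = (f + g) / 2`, `c = (f - g) / 2`. -/
theorem AB_add (hf : DifferentiableAt ℝ f z) (hg : DifferentiableAt ℝ g z) (i : Fin n) :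
    YY (fx n) W f i z + YY (fy n) W g i z =
      ((dx i (fun z => (f z + g z) / 2) z + dy i (fun z => (f z + g z) / 2) z) +
        (f z + g z) / 2 * (dx i W z + dy i W z)) +
      ((dx i (fun z => (f z - g z) / 2) z - dy i (fun z => (f z - g z) / 2) z) +
        (f z - g z) / 2 * (dx i W z - dy i W z)) := by
  have e1 : ∀ v, dd v (fun z => (f z - g z) / 2) z = (dd v f z - dd v g z) / 2 := by
    intro v
    have : (fun z => (f z - g z) / 2) = fun z => (1 / 2) * (f z - g z) := by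
      funext z; ring
    rw [this, dd_const_mul, dd_sub hf hg]
    ring
  have e2 : ∀ v, dd v (fun z => (f z + g z) / 2) z = (dd v f z + dd v g z) / 2 := by
    intro v
    have : (fun z => (f z + g z) / 2) = fun z => (1 / 2) * (f z + g z) := by
      funext z; ring
    rw [this, dd_const_mul, dd_add hf hg]
    ring
  simp only [dx_eq, dy_eq, e1, e2, YY, fx_D, fy_D]
  ring

end Vale.Agent.P088.R2.H437.T
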